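import Vale.Agent.P323.P11.Stmts

/-!
# Section 11: unfolding of `J`, the field `sub`, and the assembly of `PPForced (CObj D)`
-/

namespace Vale.Agent.P323.P11

open CategoryTheory Vale.Agent.P323.Z NameTheory TwBase

section Mono

universe u

variable {C : Type u} [Category.{u} C] [NameTheory C]

theorem FFun.mv' {X Y : C} (k : X ⟶ Y) {F A B : N X} (h : FFun F A B) :
    FFun (mv k F) (mv k A) (mv k B) where
  sub := by
    intro W v p hp
    rw [mv_mv] at hp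
    obtain ⟨W', l, x, y, hx, hy, e⟩ := h.sub (k ≫ v) p hp
    refine ⟨W', l, x, y, ?_, ?_, e⟩
    · rw [mv_mv]; simpa only [Category.assoc] using hx
    · rw [mv_mv]; simpa only [Category.assoc] using hy
  func := by
    intro W v x y y' h1 h2
    rw [mv_mv] at h1 h2
    exact h.func (k ≫ v) x y y' h1 h2
  total := by
    intro W v x hx
    rw [mv_mv] at hx
    obtain ⟨W', l, y, hy⟩ := h.total (k ≫ v) x hx
    refine ⟨W', l, y, ?_⟩
    rw [mv_mv]; simpa only [Category.assoc] using hy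

theorem FOnto.mv' {X Y : C} (k : X ⟶ Y) {F B : N X} (h : FOnto F B) :
    FOnto (mv k F) (mv k B) := by
  intro W v y hy
  rw [mv_mv] at hy
  obtain ⟨W', l, x, hx⟩ := h (k ≫ v) y hy
  refine ⟨W', l, x, ?_⟩
  rw [mv_mv]; simpa only [Category.assoc] using hx

end Mono

variable {D : Type 1} [Category.{1} D] [Tw D] [NameTheory (CObj D)]

variable {n : ℕ} {p0 : Col (a n : D)} {h0 : Sm p0} {F A B : N (XX0 p0 h0)}

/-- Unfolding of membership in `J`. -/
theorem mem_J (St : Setup F A B) {W : CObj D} (v : XX1 p0 h0 ⟶ W) (ρ : N W) :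
    fmem ρ (mv v (J St)) ↔ ∀ {W' : CObj D} (k : W ⟶ W'), ∃ (W'' : CObj D) (h : W' ⟶ W'')
      (m : JIdx St) (w : m.O ⟶ W''), v ≫ k ≫ h = m.v ≫ w ∧
        feq (mv (k ≫ h) ρ) (mv w (op m.y m.x)) :=
  fmem_mkN (XX1 p0 h0) (I := JIdx St) (fun m => m.O) (fun m => m.v) (fun m => op m.y m.x) v ρ

/-- Unfolding of `(x, y) ∈ J`. -/
theorem op_mem_J (St : Setup F A B) {W : CObj D} (v : XX1 p0 h0 ⟶ W) (x y : N W)
    (hxy : fmem (op x y) (mv v (J St))) {W' : CObj D} (k : W ⟶ W') :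
    ∃ (W'' : CObj D) (h : W' ⟶ W'') (m : JIdx St) (w : m.O ⟶ W''), v ≫ k ≫ h = m.v ≫ w ∧
      feq (mv (k ≫ h) x) (mv w m.y) ∧ feq (mv (k ≫ h) y) (mv w m.x) := by
  obtain ⟨W'', h, m, w, h1, h2⟩ := (mem_J St v _).1 hxy k
  refine ⟨W'', h, m, w, h1, ?_⟩
  exact op_feq.1 (feq_trans (feq_symm (op_mv _ _ _)) (feq_trans h2 (op_mv _ _ _)))

/-- The first coordinates are elements of `B`. -/
theorem JIdx.y_mem {St : Setup F A B} (m : JIdx St) : fmem m.y (mv (ιX p0 h0 ≫ m.v) B) := by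
  have := fmem_mv m.eZ m.P.y_mem
  rw [mv_mv, m.u_eZ] at this
  exact this

/-- The second coordinates are elements of `A`. -/
theorem JIdx.x_mem {St : Setup F A B} (m : JIdx St) : fmem m.x (mv (ιX p0 h0 ≫ m.v) A) := by
  have := fmem_mv m.f m.P.x'_mem
  rw [mv_mv, m.α_f] at this
  exact this

/-- `F` sends the second coordinate to the value at `Z'` of `y`. -/
theorem JIdx.F_mem {St : Setup F A B} (m : JIdx St) :
    fmem (op m.x (mv (m.P.k ≫ m.f) m.P.y)) (mv (ιX p0 h0 ≫ m.v) F) := by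
  have h1 := fmem_mv m.f m.P.F_mem
  rw [mv_mv, m.α_f] at h1
  refine fmem_congr ?_ (feq_refl _) h1
  have h2 := op_mv m.f m.P.x' (mv m.P.k m.P.y)
  rw [mv_mv] at h2
  exact h2

theorem J_sub (St : Setup F A B) {W : CObj D} (v : XX1 p0 h0 ⟶ W) (p : N W)
    (hp : fmem p (mv v (J St))) :
    ∃ (W' : CObj D) (k : W ⟶ W') (x y : N W'), fmem x (mv (v ≫ k) (mv (ιX p0 h0) B)) ∧
      fmem y (mv (v ≫ k) (mv (ιX p0 h0) A)) ∧ feq (mv k p) (op x y) := by
  obtain ⟨W'', h, m, w, h1, h2⟩ := (mem_J St v p).1 hp (𝟙 W)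
  rw [Category.id_comp] at h1 h2
  refine ⟨W'', h, mv w m.y, mv w m.x, ?_, ?_, feq_trans h2 (op_mv _ _ _)⟩
  · have := fmem_mv w m.y_mem
    rw [mv_mv, Category.assoc, ← h1] at this
    rw [mv_mv]
    exact this
  · have := fmem_mv w m.x_mem
    rw [mv_mv, Category.assoc, ← h1] at this
    rw [mv_mv]
    exact this

/-- The assembly of section 11. -/
theorem ppForced_of
    (hstart : ∀ X : CObj D, ∃ (n : ℕ) (p0 : Col (a n : D)) (h0 : Sm p0),
      Nonempty (X ⟶ XX0 p0 h0))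
    (hsetup : ∀ {n : ℕ} {p0 : Col (a n : D)} {h0 : Sm p0} (F A B : N (XX0 p0 h0)),
      FFun F A B → FOnto F B → Nonempty (Setup F A B))
    (hfunc : ∀ {n : ℕ} {p0 : Col (a n : D)} {h0 : Sm p0} {F A B : N (XX0 p0 h0)},
      FFun F A B → FOnto F B → ∀ (St : Setup F A B) {W : CObj D} (v : XX1 p0 h0 ⟶ W)
        (x y y' : N W), fmem (op x y) (mv v (J St)) → fmem (op x y') (mv v (J St)) → feq y y')
    (hinj : ∀ {n : ℕ} {p0 : Col (a n : D)} {h0 : Sm p0} {F A B : N (XX0 p0 h0)},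
      FFun F A B → FOnto F B → ∀ St : Setup F A B, FInj (J St))
    (htot : ∀ {n : ℕ} {p0 : Col (a n : D)} {h0 : Sm p0} {F A B : N (XX0 p0 h0)},
      FFun F A B → FOnto F B → ∀ (St : Setup F A B) {W : CObj D} (v : XX1 p0 h0 ⟶ W)
        (x : N W), fmem x (mv v (mv (ιX p0 h0) B)) →
        ∃ (W' : CObj D) (k : W ⟶ W') (y : N W'), fmem (op (mv k x) y) (mv (v ≫ k) (J St))) :
    PPForced (CObj D) := by
  intro X F A B hF hB
  obtain ⟨n, p0, h0, ⟨k0⟩⟩ := hstart X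
  have hF' := FFun.mv' k0 hF
  have hB' : FOnto (mv k0 F) (mv k0 B) := FOnto.mv' k0 (fun v y hy => hB v y hy)
  obtain ⟨St⟩ := hsetup _ _ _ hF' hB'
  refine ⟨XX1 p0 h0, k0 ≫ ιX p0 h0, J St, ?_, hinj hF' hB' St⟩
  rw [← mv_mv, ← mv_mv]
  refine ⟨?_, ?_, ?_⟩
  · intro W v p hp
    exact J_sub St v p hp
  · intro W v x y y' h1 h2
    exact hfunc hF' hB' St v x y y' h1 h2
  · intro W v x hx
    exact htot hF' hB' St v x hx

/-- Functionality of `J` on the level of names. -/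
theorem J_func_of (hE : StmtE D) (St : Setup F A B) {W : CObj D} (v : XX1 p0 h0 ⟶ W)
    (x y y' : N W) (h1 : fmem (op x y) (mv v (J St))) (h2 : fmem (op x y') (mv v (J St))) :
    feq y y' := by
  refine feq_loc fun {Y} k => ?_
  obtain ⟨V, h, m, w, e1, e2, e3⟩ := op_mem_J St v x y h1 k
  obtain ⟨V', h', m', w', e1', e2', e3'⟩ := op_mem_J St v x y' h2 (k ≫ h)
  refine ⟨V', h ≫ h', ?_⟩
  have c1 : m.v ≫ w ≫ h' = m'.v ≫ w' := by
    rw [← e1', ← Category.assoc, ← e1]; simp only [Category.assoc]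
  have a2 := feq_mv h' e2
  have a3 := feq_mv h' e3
  rw [mv_mv, mv_mv] at a2 a3
  simp only [Category.assoc] at a2 a3 e2' e3' ⊢
  have := hE St m m' (w ≫ h') w' c1 (feq_trans (feq_symm a2) e2')
  exact feq_trans a3 (feq_trans this (feq_symm e3'))

/-- Injectivity of `J` on the level of names. -/
theorem J_inj_of (hF : StmtF D) (hFF : FFun F A B) (St : Setup F A B) : FInj (J St) := by
  intro W v x x' y h1 h2
  refine feq_loc fun {Y} k => ?_
  obtain ⟨V, h, m, w, e1, e2, e3⟩ := op_mem_J St v x y h1 k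
  obtain ⟨V', h', m', w', e1', e2', e3'⟩ := op_mem_J St v x' y h2 (k ≫ h)
  refine ⟨V', h ≫ h', ?_⟩
  have c1 : m.v ≫ w ≫ h' = m'.v ≫ w' := by
    rw [← e1', ← Category.assoc, ← e1]; simp only [Category.assoc]
  have a2 := feq_mv h' e2
  have a3 := feq_mv h' e3
  rw [mv_mv, mv_mv] at a2 a3
  simp only [Category.assoc] at a2 a3 e2' e3' ⊢
  have := hF hFF St m m' (w ≫ h') w' c1 (feq_trans (feq_symm a3) e3')
  exact feq_trans a2 (feq_trans this (feq_symm e2'))

/-- Totality of `J` on the level of names. -/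
theorem J_tot_of (hG : StmtG D) (St : Setup F A B) {W : CObj D} (v : XX1 p0 h0 ⟶ W)
    (x : N W) (hx : fmem x (mv v (mv (ιX p0 h0) B))) :
    ∃ (W' : CObj D) (k : W ⟶ W') (y : N W'), fmem (op (mv k x) y) (mv (v ≫ k) (J St)) := by
  rw [mv_mv] at hx
  obtain ⟨W', w, m, e, h1, h2⟩ := hG St v x hx
  refine ⟨W', w, mv e m.x, (mem_J St (v ≫ w) _).2 fun {V} k => ?_⟩
  refine ⟨V, 𝟙 V, m, e ≫ k, ?_, ?_⟩
  · rw [Category.comp_id, ← Category.assoc, h1]
  · rw [Category.comp_id]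
    refine feq_trans (op_mv k _ _) (feq_trans ?_ (feq_symm (op_mv (e ≫ k) _ _)))
    refine op_feq.2 ⟨?_, ?_⟩
    · have := feq_mv k h2
      rwa [mv_mv e k] at this
    · rw [mv_mv]; exact feq_refl _

/-- The partition principle is forced, from the parts of section 11. -/
theorem ppForced_of_parts (hX : StmtX D) (hB : StmtB D) (hC : StmtC D) (hC' : StmtC' D)
    (hE : StmtE D) (hF : StmtF D) (hG : StmtG D) : PPForced (CObj D) := by
  refine ppForced_of ?_ ?_ ?_ ?_ ?_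
  · intro X
    obtain ⟨p0, h0, hk⟩ := hX X
    exact ⟨1, p0, h0, hk⟩
  · intro n p0 h0 F A B hFF hFo
    obtain ⟨S, S1, S2⟩ := hB hFF hFo
    choose T T1 T2 using fun P : Piece F A B => hC (ιX p0 h0) P
    choose I I1 I2 I3 using fun P : Piece F A B => hC' P (T P) (T1 P)
    exact ⟨{ S := S, S_disj := S1, S_cover := S2, T := T, T_disj := T1, T_cover := T2, I := I,
             I_disj := I1, I_large := I2, I_unb := I3 }⟩
  · intro n p0 h0 F A B _ _ St W v x y y' h1 h2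
    exact J_func_of hE St v x y y' h1 h2
  · intro n p0 h0 F A B hFF _ St
    exact J_inj_of hF hFF St
  · intro n p0 h0 F A B _ _ St W v x hx
    exact J_tot_of hG St v x hx

end Vale.Agent.P323.P11
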